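import Vale.Agent.P137.CFinal
import Vale.Agent.P137.Final

open MeasureTheory Metric
open scoped ENNReal RealInnerProductSpace

namespace Vale.Agent.Results.P137.Both

/-- `G` is a weak gradient of `f` on `ℝ^d`: integration by parts against all smooth compactly
supported test functions, in every direction `v`. -/
def IsWeakGradient {d : ℕ} (f : EuclideanSpace ℝ (Fin d) → ℝ)
    (G : EuclideanSpace ℝ (Fin d) → EuclideanSpace ℝ (Fin d)) : Prop :=
  ∀ φ : EuclideanSpace ℝ (Fin d) → ℝ, ContDiff ℝ (⊤ : ℕ∞) φ → HasCompactSupport φ →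
    ∀ v : EuclideanSpace ℝ (Fin d), ∫ x, f x * fderiv ℝ φ x v = -∫ x, ⟪G x, v⟫ * φ x

/-- The centered Hardy-Littlewood maximal function, with values in `[0, ∞]`: the supremum over
`r > 0` of the averages of `|f|` over the open Euclidean balls `B(x, r)`. -/
noncomputable def centeredMax {d : ℕ} (f : EuclideanSpace ℝ (Fin d) → ℝ)
    (x : EuclideanSpace ℝ (Fin d)) : ℝ≥0∞ :=
  ⨆ (r : ℝ) (_ : 0 < r), (∫⁻ y in ball x r, ‖f y‖ₑ) / volume (ball x r)

/-- The uncentered Hardy-Littlewood maximal function, with values in `[0, ∞]`: the supremum of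
the averages of `|f|` over all open Euclidean balls containing `x`. -/
noncomputable def uncenteredMax {d : ℕ} (f : EuclideanSpace ℝ (Fin d) → ℝ)
    (x : EuclideanSpace ℝ (Fin d)) : ℝ≥0∞ :=
  ⨆ (z : EuclideanSpace ℝ (Fin d)) (r : ℝ) (_ : x ∈ ball z r),
    (∫⁻ y in ball z r, ‖f y‖ₑ) / volume (ball z r)

/-- `m` is finite almost everywhere, locally integrable, and has an integrable weak gradient of
`L¹` norm at most `B`. -/
def HasL1Gradient {d : ℕ} (m : EuclideanSpace ℝ (Fin d) → ℝ≥0∞) (B : ℝ) : Prop :=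
  (∀ᵐ x, m x < ⊤) ∧ LocallyIntegrable (fun x => (m x).toReal) ∧
    ∃ G' : EuclideanSpace ℝ (Fin d) → EuclideanSpace ℝ (Fin d),
      Integrable G' ∧ IsWeakGradient (fun x => (m x).toReal) G' ∧ ∫ x, ‖G' x‖ ≤ B

/-- The Hajlasz-Onninen `W^{1,1}` question, in every dimension `d ≥ 1`, for the centered and for
the uncentered Hardy-Littlewood maximal operator over Euclidean balls: for `f ∈ W^{1,1}(ℝ^d)` with
weak gradient `G`, both maximal functions are finite almost everywhere, locally integrable, and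
have an integrable weak gradient of `L¹` norm at most `C_d ∫ |G|`. -/
theorem result (d : ℕ) (hd : 1 ≤ d) :
    ∃ C : ℝ, ∀ (f : EuclideanSpace ℝ (Fin d) → ℝ)
      (G : EuclideanSpace ℝ (Fin d) → EuclideanSpace ℝ (Fin d)),
      Integrable f → Integrable G → IsWeakGradient f G →
        HasL1Gradient (centeredMax f) (C * ∫ x, ‖G x‖) ∧
        HasL1Gradient (uncenteredMax f) (C * ∫ x, ‖G x‖) := by
  haveI : Nonempty (Fin d) := ⟨⟨0, hd⟩⟩
  obtain ⟨C₁, h₁⟩ := Vale.Agent.P137.final_centered (E := EuclideanSpace ℝ (Fin d))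
  obtain ⟨C₂, h₂⟩ := Vale.Agent.P137.final (E := EuclideanSpace ℝ (Fin d))
  refine ⟨max C₁ C₂, fun f G hf hG hw => ?_⟩
  have h0 : 0 ≤ ∫ x, ‖G x‖ := integral_nonneg fun _ => norm_nonneg _
  obtain ⟨a1, a2, G₁, a3, a4, a5⟩ := h₁ f G hf hG hw
  obtain ⟨b1, b2, G₂, b3, b4, b5⟩ := h₂ f G hf hG hw
  exact ⟨⟨a1, a2, G₁, a3, a4, a5.trans (mul_le_mul_of_nonneg_right (le_max_left _ _) h0)⟩,
    ⟨b1, b2, G₂, b3, b4, b5.trans (mul_le_mul_of_nonneg_right (le_max_right _ _) h0)⟩⟩

end Vale.Agent.Results.P137.Both
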