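import Vale.Agent.P137.Final

open MeasureTheory Metric
open scoped ENNReal RealInnerProductSpace

namespace Vale.Agent.Results.P137.Uncentered

/-- `G` is a weak gradient of `f` on `ℝ^d`: integration by parts against all smooth compactly
supported test functions, in every direction `v`. -/
def IsWeakGradient {d : ℕ} (f : EuclideanSpace ℝ (Fin d) → ℝ)
    (G : EuclideanSpace ℝ (Fin d) → EuclideanSpace ℝ (Fin d)) : Prop :=
  ∀ φ : EuclideanSpace ℝ (Fin d) → ℝ, ContDiff ℝ (⊤ : ℕ∞) φ → HasCompactSupport φ →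
    ∀ v : EuclideanSpace ℝ (Fin d), ∫ x, f x * fderiv ℝ φ x v = -∫ x, ⟪G x, v⟫ * φ x

/-- The uncentered Hardy-Littlewood maximal function, with values in `[0, ∞]`: the supremum of
the averages of `|f|` over all open Euclidean balls containing `x`. -/
noncomputable def uncenteredMax {d : ℕ} (f : EuclideanSpace ℝ (Fin d) → ℝ)
    (x : EuclideanSpace ℝ (Fin d)) : ℝ≥0∞ :=
  ⨆ (z : EuclideanSpace ℝ (Fin d)) (r : ℝ) (_ : x ∈ ball z r),
    (∫⁻ y in ball z r, ‖f y‖ₑ) / volume (ball z r)

/-- The Hajlasz-Onninen `W^{1,1}` question for the uncentered Hardy-Littlewood maximal operator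
over Euclidean balls, in every dimension `d ≥ 1`: for `f ∈ W^{1,1}(ℝ^d)` with weak gradient `G`,
the maximal function is finite almost everywhere, locally integrable, and has an integrable weak
gradient `G'` with `∫ |G'| ≤ C_d ∫ |G|`. -/
theorem result (d : ℕ) (hd : 1 ≤ d) :
    ∃ C : ℝ, ∀ (f : EuclideanSpace ℝ (Fin d) → ℝ)
      (G : EuclideanSpace ℝ (Fin d) → EuclideanSpace ℝ (Fin d)),
      Integrable f → Integrable G → IsWeakGradient f G →
        (∀ᵐ x, uncenteredMax f x < ⊤) ∧
        LocallyIntegrable (fun x => (uncenteredMax f x).toReal) ∧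
        ∃ G' : EuclideanSpace ℝ (Fin d) → EuclideanSpace ℝ (Fin d),
          Integrable G' ∧ IsWeakGradient (fun x => (uncenteredMax f x).toReal) G' ∧
            ∫ x, ‖G' x‖ ≤ C * ∫ x, ‖G x‖ := by
  haveI : Nonempty (Fin d) := ⟨⟨0, hd⟩⟩
  exact Vale.Agent.P137.final

end Vale.Agent.Results.P137.Uncentered
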